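import Mathlib

/-! Parabolic rescalings of a family of measures and their limits. -/

namespace Vale.Agent.P218

open MeasureTheory Filter Topology

/-- Euclidean three-space. -/
abbrev E3 : Type := EuclideanSpace ℝ (Fin 3)

/-- The time `-1` slice of the parabolic rescaling by `lam` about `(x0, t0)`. -/
noncomputable def resc (μ : ℝ → Measure E3) (x0 : E3) (t0 lam : ℝ) : Measure E3 :=
  ENNReal.ofReal (lam ^ 2) • (μ (t0 - (lam ^ 2)⁻¹)).map fun x => lam • (x - x0)

/-- Weak convergence of the rescalings along a filter, against compactly supported functions. -/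
def WLim (μ : ℝ → Measure E3) (x0 : E3) (t0 : ℝ) {ι : Type} (l : Filter ι) (lam : ι → ℝ)
    (ν : Measure E3) : Prop :=
  ∀ φ : CompactlySupportedContinuousMap E3 ℝ,
    Tendsto (fun i => ∫ x, φ x ∂(resc μ x0 t0 (lam i))) l (𝓝 (∫ x, φ x ∂ν))

/-- A Radon measure that is the weak limit of the rescalings along some sequence of scales. -/
def IsTan (μ : ℝ → Measure E3) (x0 : E3) (t0 : ℝ) (ν : Measure E3) : Prop :=
  IsLocallyFiniteMeasure ν ∧ ∃ lam : ℕ → ℝ, Tendsto lam atTop atTop ∧ WLim μ x0 t0 atTop lam ν

/-- The rescalings depend weakly continuously on large scales, and every sequence of scales has a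
subsequence along which they converge weakly to a Radon measure. -/
def Soft (μ : ℝ → Measure E3) (x0 : E3) (t0 : ℝ) : Prop :=
  (∃ a : ℝ, ∀ φ : CompactlySupportedContinuousMap E3 ℝ,
    ContinuousOn (fun lam => ∫ x, φ x ∂(resc μ x0 t0 lam)) (Set.Ici a)) ∧
  ∀ lam : ℕ → ℝ, Tendsto lam atTop atTop → ∃ (k : ℕ → ℕ) (ν : Measure E3), StrictMono k ∧
    IsLocallyFiniteMeasure ν ∧ WLim μ x0 t0 atTop (fun i => lam (k i)) ν

/-- The orthogonal group of Euclidean three-space. -/
abbrev O3 : Type := E3 ≃ₗᵢ[ℝ] E3

/-- The push-forward of a measure under an orthogonal map. -/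
noncomputable def rot (R : O3) (ν : Measure E3) : Measure E3 := ν.map R

/-- The stabiliser of a measure in the orthogonal group. -/
def Stab (ν : Measure E3) : Set O3 := {R | rot R ν = ν}

/-- The centraliser of a set of orthogonal maps. -/
def Cent (G : Set O3) : Set O3 := {R | ∀ g ∈ G, ∀ x, R (g x) = g (R x)}

/-- All measures of the family are invariant under `g` acting about `x0`. -/
def Inv (μ : ℝ → Measure E3) (x0 : E3) (g : O3) : Prop :=
  ∀ t, (μ t).map (fun x => x0 + g (x - x0)) = μ t

/-- The rescalings converge weakly to a Radon measure as the scale tends to infinity. -/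
def Conv (μ : ℝ → Measure E3) (x0 : E3) (t0 : ℝ) : Prop :=
  ∃ ν : Measure E3, IsLocallyFiniteMeasure ν ∧ WLim μ x0 t0 atTop (fun lam : ℝ => lam) ν

end Vale.Agent.P218
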