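import Vale.Agent.P218.Defs

namespace Vale.Agent.P218

open MeasureTheory Filter Topology Set

theorem not_lt_of_countable {μ : ℝ → Measure E3} {x0 : E3} {t0 : ℝ} (hs : Soft μ x0 t0)
    (hc : {ν | IsTan μ x0 t0 ν}.Countable) {ν ν' : Measure E3} (h : IsTan μ x0 t0 ν)
    (h' : IsTan μ x0 t0 ν') (φ : CompactlySupportedContinuousMap E3 ℝ) :
    ¬ ∫ x, φ x ∂ν < ∫ x, φ x ∂ν' := by
  intro hlt
  obtain ⟨⟨a, ha⟩, hcp⟩ := hs
  obtain ⟨-, l1, t1, w1⟩ := h
  obtain ⟨-, l2, t2, w2⟩ := h'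
  have hsub : Ioo (∫ x, φ x ∂ν) (∫ x, φ x ∂ν') ⊆
      (fun ν : Measure E3 => ∫ x, φ x ∂ν) '' {ν | IsTan μ x0 t0 ν} := by
    intro c hc'
    have hex : ∀ n : ℕ, ∃ lam, (n : ℝ) ≤ lam ∧ ∫ x, φ x ∂(resc μ x0 t0 lam) = c := by
      intro n
      obtain ⟨i, i1, i2⟩ := (((w1 φ).eventually (gt_mem_nhds hc'.1)).and
        (t1.eventually (eventually_ge_atTop (max a n)))).exists
      obtain ⟨j, j1, j2⟩ := (((w2 φ).eventually (lt_mem_nhds hc'.2)).and
        (t2.eventually (eventually_ge_atTop (max a n)))).exists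
      obtain ⟨lam, hl, he⟩ := isPreconnected_Ici.intermediate_value (show l1 i ∈ Ici (max a n) from i2)
        (show l2 j ∈ Ici (max a n) from j2) ((ha φ).mono (Ici_subset_Ici.mpr (le_max_left _ _)))
        ⟨i1.le, j1.le⟩
      exact ⟨lam, (le_max_right _ _).trans hl, he⟩
    choose lam h1 h2 using hex
    have ht : Tendsto lam atTop atTop := tendsto_atTop_mono h1 tendsto_natCast_atTop_atTop
    obtain ⟨k, ν0, hk, hf, hw⟩ := hcp lam ht
    refine ⟨ν0, ⟨hf, _, ht.comp hk.tendsto_atTop, hw⟩, ?_⟩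
    have := hw φ
    simp only [h2] at this
    exact (tendsto_nhds_unique tendsto_const_nhds this).symm
  have := (hc.image _).mono hsub
  exact (Cardinal.not_countable_real.comp fun h => h) (by
    rw [← Cardinal.le_aleph0_iff_set_countable, Cardinal.mk_Ioo_real hlt] at this
    rw [← Cardinal.le_aleph0_iff_set_countable, Cardinal.mk_univ_real]
    exact this)

theorem conv_of_countable {μ : ℝ → Measure E3} {x0 : E3} {t0 : ℝ} (hs : Soft μ x0 t0)
    (hc : {ν | IsTan μ x0 t0 ν}.Countable) :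
    ∃ ν : Measure E3, IsLocallyFiniteMeasure ν ∧ WLim μ x0 t0 atTop (fun lam : ℝ => lam) ν := by
  obtain ⟨k, ν, hk, hf, hw⟩ := hs.2 _ tendsto_natCast_atTop_atTop
  have hν : IsTan μ x0 t0 ν := ⟨hf, _, tendsto_natCast_atTop_atTop.comp hk.tendsto_atTop, hw⟩
  refine ⟨ν, hf, fun φ => tendsto_of_subseq_tendsto fun lam hl => ?_⟩
  obtain ⟨k', ν', hk', hf', hw'⟩ := hs.2 lam hl
  have hν' : IsTan μ x0 t0 ν' := ⟨hf', _, hl.comp hk'.tendsto_atTop, hw'⟩
  refine ⟨k', ?_⟩
  rw [le_antisymm (not_lt.mp (not_lt_of_countable hs hc hν' hν φ))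
    (not_lt.mp (not_lt_of_countable hs hc hν hν' φ))]
  exact hw' φ

theorem resc_inv {μ : ℝ → Measure E3} {x0 : E3} (t0 lam : ℝ) (g : E3 ≃ₗᵢ[ℝ] E3)
    (hg : ∀ t, (μ t).map (fun x => x0 + g (x - x0)) = μ t) :
    (resc μ x0 t0 lam).map g = resc μ x0 t0 lam := by
  have m1 : Measurable fun x : E3 => lam • (x - x0) := by fun_prop
  have m2 : Measurable fun x : E3 => x0 + g (x - x0) :=
    (continuous_const.add (g.continuous.comp (by fun_prop))).measurable
  rw [resc, Measure.map_smul, Measure.map_map g.continuous.measurable m1]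
  congr 1
  conv_rhs => rw [← hg, Measure.map_map m1 m2]
  congr 1
  funext x
  simp

theorem tan_inv {μ : ℝ → Measure E3} {x0 : E3} {t0 : ℝ} (g : E3 ≃ₗᵢ[ℝ] E3)
    (hg : ∀ t, (μ t).map (fun x => x0 + g (x - x0)) = μ t) {ν : Measure E3}
    (h : IsTan μ x0 t0 ν) : ν.map g = ν := by
  obtain ⟨hf, lam, -, hw⟩ := h
  have hr : (ν.map g).Regular := Measure.Regular.map g.toHomeomorph
  have key : ∀ (ρ : Measure E3) (φ : CompactlySupportedContinuousMap E3 ℝ),
      ∫ x, φ x ∂(ρ.map g) = ∫ x, φ (g x) ∂ρ := fun ρ φ =>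
    integral_map g.continuous.measurable.aemeasurable φ.continuous.aestronglyMeasurable
  refine Measure.ext_of_integral_eq_on_compactlySupported fun φ => ?_
  let ψ : CompactlySupportedContinuousMap E3 ℝ :=
    ⟨⟨fun x => φ (g x), φ.continuous.comp g.continuous⟩,
      φ.hasCompactSupport.comp_homeomorph g.toHomeomorph⟩
  refine tendsto_nhds_unique ?_ (hw φ)
  rw [key]
  refine (hw ψ).congr fun i => ?_
  conv_rhs => rw [← resc_inv t0 (lam i) g hg, key]
  rfl

theorem countable_of_sym (G : Set O3) (hG : G.Finite) (ν0 : Measure E3)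
    (hz : (Cent G).Countable) (hst : (Stab ν0).Countable) :
    {R : O3 | ∀ g ∈ G, (ν0.map R).map g = ν0.map R}.Countable := by
  have := hG.to_subtype
  have hF : {F : G → O3 | ∀ g, F g ∈ Stab ν0}.Countable := countable_pi fun _ => hst
  refine (hF.biUnion (t := fun F _ => {R : O3 | ∀ g : G, R⁻¹ * g * R = F g})
    fun F _ => ?_).mono fun R hR => ?_
  · rcases {R : O3 | ∀ g : G, R⁻¹ * g * R = F g}.eq_empty_or_nonempty with h | ⟨R0, h0⟩
    · rw [h]; exact countable_empty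
    · refine Countable.mono (fun R hR => ?_) (hz.image fun Z => Z * R0)
      refine ⟨R * R0⁻¹, fun g hg x => ?_, by simp⟩
      have e : R⁻¹ * g * R = R0⁻¹ * g * R0 := (hR ⟨g, hg⟩).trans (h0 ⟨g, hg⟩).symm
      have e2 : R * R0⁻¹ * g = g * (R * R0⁻¹) :=
        calc R * R0⁻¹ * g = R * (R0⁻¹ * g * R0) * R0⁻¹ := by group
          _ = g * (R * R0⁻¹) := by rw [← e]; group
      exact congrArg (fun T : O3 => T x) e2
  · refine mem_iUnion₂.mpr ⟨fun g : G => R⁻¹ * g * R, fun g => ?_, fun g => rfl⟩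
    have h1 := congrArg (fun ρ : Measure E3 => ρ.map ⇑(R⁻¹)) (hR g g.2)
    simp only [Measure.map_map (LinearIsometryEquiv.continuous _).measurable
      (LinearIsometryEquiv.continuous _).measurable] at h1
    rw [Measure.map_map (LinearIsometryEquiv.continuous _).measurable
      ((LinearIsometryEquiv.continuous _).measurable.comp
      (LinearIsometryEquiv.continuous _).measurable)] at h1
    have e2 : (⇑(R⁻¹) ∘ ⇑R : E3 → E3) = id := by funext x; simp
    rw [e2, Measure.map_id] at h1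
    exact h1

end Vale.Agent.P218
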